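import Crest.Agent.R18.PL
import Crest.Agent.R18.Dict

/-! Row 18 block H: linear algebra over `ℤ_[ℓ]` and the bound for the index of the ray subgroup. -/

set_option autoImplicit false
set_option linter.unusedSectionVars false
open scoped Pointwise NumberField
open IsDedekindDomain

namespace Crest.Agent.R18.H

variable {ℓ : ℕ} [Fact ℓ.Prime] {ι : Type*} [Fintype ι]

theorem span_approx (S : AddSubgroup (ι → ℤ_[ℓ])) {m : ι → ℤ_[ℓ]}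
    (hm : m ∈ Submodule.span ℤ_[ℓ] (S : Set (ι → ℤ_[ℓ]))) {ε : ℝ} (hε : 0 < ε) :
    ∃ s ∈ S, ∀ i, ‖s i - m i‖ ≤ ε := by
  induction hm using Submodule.span_induction with
  | mem x hx => exact ⟨x, hx, fun i => by simpa using hε.le⟩
  | zero => exact ⟨0, S.zero_mem, fun i => by simpa using hε.le⟩
  | add x y _ _ hx hy =>
    obtain ⟨s, hs, h1⟩ := hx
    obtain ⟨t, ht, h2⟩ := hy
    refine ⟨s + t, S.add_mem hs ht, fun i => ?_⟩
    have : (s + t) i - (x + y) i = (s i - x i) + (t i - y i) := by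
      simp only [Pi.add_apply]; ring
    rw [this]
    exact (PadicInt.nonarchimedean _ _).trans (max_le (h1 i) (h2 i))
  | smul a x _ hx =>
    obtain ⟨s, hs, h1⟩ := hx
    obtain ⟨n, hn⟩ := (PadicInt.denseRange_natCast (p := ℓ)).exists_dist_lt a hε
    refine ⟨n • s, S.nsmul_mem hs n, fun i => ?_⟩
    have : (n • s) i - (a • x) i = (n : ℤ_[ℓ]) * (s i - x i) + ((n : ℤ_[ℓ]) - a) * x i := by
      simp only [Pi.smul_apply, nsmul_eq_mul, smul_eq_mul]; ring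
    rw [this]
    refine (PadicInt.nonarchimedean _ _).trans (max_le ?_ ?_)
    · rw [norm_mul]
      exact (mul_le_of_le_one_left (norm_nonneg _) (PadicInt.norm_le_one _)).trans (h1 i)
    · rw [norm_mul]
      refine (mul_le_of_le_one_right (norm_nonneg _) (PadicInt.norm_le_one _)).trans ?_
      rw [dist_comm, dist_eq_norm] at hn
      exact hn.le

theorem exists_clear (a : ℚ_[ℓ]) : ∃ (n : ℕ) (b : ℤ_[ℓ]), (ℓ : ℚ_[ℓ]) ^ n * a = b := by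
  have hl : ‖(ℓ : ℚ_[ℓ])‖ < 1 := Padic.norm_p_lt_one
  obtain ⟨n, hn⟩ := exists_pow_lt_of_lt_one (x := (‖a‖ + 1)⁻¹) (by positivity) hl
  refine ⟨n, ⟨(ℓ : ℚ_[ℓ]) ^ n * a, ?_⟩, rfl⟩
  rw [norm_mul, norm_pow]
  have h1 : ‖(ℓ : ℚ_[ℓ])‖ ^ n * (‖a‖ + 1) < 1 := by
    rwa [← one_div, lt_div_iff₀ (by positivity)] at hn
  have h2 : 0 ≤ ‖(ℓ : ℚ_[ℓ])‖ ^ n := by positivity
  nlinarith

theorem exists_clear_vec (a : ι → ℚ_[ℓ]) :
    ∃ (n : ℕ) (b : ι → ℤ_[ℓ]), ∀ i, (ℓ : ℚ_[ℓ]) ^ n * a i = b i := by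
  classical
  choose n b h using fun i => exists_clear (ℓ := ℓ) (a i)
  refine ⟨∑ i, n i, fun i => (ℓ : ℤ_[ℓ]) ^ (∑ j, n j - n i) * b i, fun i => ?_⟩
  have hle : n i ≤ ∑ j, n j := Finset.single_le_sum (f := n) (fun _ _ => Nat.zero_le _)
    (Finset.mem_univ i)
  push_cast
  rw [← h i, ← mul_assoc, ← pow_add, Nat.sub_add_cancel hle]

theorem exists_pow_smul_mem (S : Set (ι → ℤ_[ℓ]))
    (h : ∀ lam : ι → ℤ_[ℓ], (∀ s ∈ S, ∑ c, lam c * s c = 0) → lam = 0) :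
    ∃ c : ℕ, ∀ v : ι → ℤ_[ℓ], (ℓ : ℤ_[ℓ]) ^ c • v ∈ Submodule.span ℤ_[ℓ] S := by
  classical
  have hl0 : (ℓ : ℚ_[ℓ]) ≠ 0 := by exact_mod_cast (Fact.out : ℓ.Prime).ne_zero
  let j : (ι → ℤ_[ℓ]) → (ι → ℚ_[ℓ]) := fun s i => (s i : ℚ_[ℓ])
  have htop : Submodule.span ℚ_[ℓ] (j '' S) = ⊤ := by
    by_contra hne
    obtain ⟨f, hf0, hf⟩ := Submodule.exists_le_ker_of_lt_top _ (lt_top_iff_ne_top.2 hne)
    obtain ⟨n, b, hb⟩ := exists_clear_vec (ℓ := ℓ) (fun i => f (Pi.single i 1))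
    have hfx : ∀ x : ι → ℚ_[ℓ], f x = ∑ i, x i * f (Pi.single i 1) := by
      intro x
      rw [LinearMap.pi_apply_eq_sum_univ]
      refine Finset.sum_congr rfl fun i _ => ?_
      rw [smul_eq_mul]
      congr 2
      ext k
      simp [Pi.single_apply, eq_comm]
    have hb0 : b = 0 := by
      refine h b fun s hs => ?_
      have h1 : f (j s) = 0 := hf (Submodule.subset_span ⟨s, hs, rfl⟩)
      rw [hfx] at h1
      have h2 : ((∑ c, b c * s c : ℤ_[ℓ]) : ℚ_[ℓ]) = 0 := by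
        rw [PadicInt.coe_sum]
        have : ∀ c, ((b c * s c : ℤ_[ℓ]) : ℚ_[ℓ]) =
            (ℓ : ℚ_[ℓ]) ^ n * (j s c * f (Pi.single c 1)) := by
          intro c
          rw [PadicInt.coe_mul, ← hb c]
          simp only [j]; ring
        simp only [this, ← Finset.mul_sum, h1, mul_zero]
      exact PadicInt.coe_eq_zero.1 h2
    apply hf0
    ext i
    have := hb i
    rw [hb0] at this
    simp only [Pi.zero_apply, PadicInt.coe_zero, mul_eq_zero, pow_eq_zero_iff', hl0, false_and,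
      false_or] at this
    simpa using this
  have key : ∀ w : ι → ℚ_[ℓ], w ∈ Submodule.span ℚ_[ℓ] (j '' S) →
      ∃ (n : ℕ) (m : ι → ℤ_[ℓ]), m ∈ Submodule.span ℤ_[ℓ] S ∧
        ∀ i, (ℓ : ℚ_[ℓ]) ^ n * w i = m i := by
    intro w hw
    induction hw using Submodule.span_induction with
    | mem x hx =>
      obtain ⟨s, hs, rfl⟩ := hx
      exact ⟨0, s, Submodule.subset_span hs, fun i => by simp [j]⟩
    | zero => exact ⟨0, 0, Submodule.zero_mem _, fun i => by simp⟩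
    | add x y _ _ hx hy =>
      obtain ⟨n, m, hm, h1⟩ := hx
      obtain ⟨n', m', hm', h2⟩ := hy
      refine ⟨n + n', (ℓ : ℤ_[ℓ]) ^ n' • m + (ℓ : ℤ_[ℓ]) ^ n • m',
        Submodule.add_mem _ (Submodule.smul_mem _ _ hm) (Submodule.smul_mem _ _ hm'), fun i => ?_⟩
      simp only [Pi.add_apply, Pi.smul_apply, smul_eq_mul]
      push_cast
      rw [← h1 i, ← h2 i]; ring
    | smul a x _ hx =>
      obtain ⟨n, m, hm, h1⟩ := hx
      obtain ⟨n', b, hb⟩ := exists_clear (ℓ := ℓ) a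
      refine ⟨n + n', b • m, Submodule.smul_mem _ _ hm, fun i => ?_⟩
      simp only [Pi.smul_apply, smul_eq_mul]
      push_cast
      rw [← h1 i, ← hb]; ring
  choose n m hm hnm using fun i : ι => key (Pi.single i 1) (by rw [htop]; trivial)
  obtain ⟨N, hN⟩ : ∃ N, ∀ i, n i ≤ N := ⟨∑ i, n i, fun i =>
    Finset.single_le_sum (f := n) (fun _ _ => Nat.zero_le _) (Finset.mem_univ i)⟩
  have hm1 : ∀ k, m k k = (ℓ : ℤ_[ℓ]) ^ n k := by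
    intro k
    apply PadicInt.ext
    rw [← hnm k k]; simp
  have hm2 : ∀ i k, i ≠ k → m i k = 0 := by
    intro i k hik
    apply PadicInt.ext
    rw [← hnm i k, Pi.single_eq_of_ne hik.symm]; simp
  refine ⟨N, fun v => ?_⟩
  have : (ℓ : ℤ_[ℓ]) ^ N • v = ∑ i, (v i * (ℓ : ℤ_[ℓ]) ^ (N - n i)) • m i := by
    funext k
    simp only [Pi.smul_apply, smul_eq_mul, Finset.sum_apply]
    rw [Finset.sum_eq_single k]
    · rw [hm1, mul_assoc, ← pow_add, Nat.sub_add_cancel (hN k), mul_comm]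
    · intro i _ hik
      rw [hm2 i k hik, mul_zero]
    · simp
  rw [this]
  exact Submodule.sum_mem _ fun i _ => Submodule.smul_mem _ _ (hm i)

theorem dense_ball (S : AddSubgroup (ι → ℤ_[ℓ]))
    (h : ∀ lam : ι → ℤ_[ℓ], (∀ s ∈ S, ∑ c, lam c * s c = 0) → lam = 0) :
    ∃ c : ℕ, ∀ v : ι → ℤ_[ℓ], (∀ i, ‖v i‖ ≤ (ℓ : ℝ) ^ (-(c : ℤ))) → ∀ ε : ℝ, 0 < ε →
      ∃ s ∈ S, ∀ i, ‖s i - v i‖ ≤ ε := by
  obtain ⟨c, hc⟩ := exists_pow_smul_mem (S : Set (ι → ℤ_[ℓ])) h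
  refine ⟨c, fun v hv ε hε => span_approx S ?_ hε⟩
  have : ∀ i, ∃ w, v i = (ℓ : ℤ_[ℓ]) ^ c * w := fun i =>
    Ideal.mem_span_singleton.1 ((PadicInt.norm_le_pow_iff_mem_span_pow _ _).1 (hv i))
  choose w hw using this
  have : v = (ℓ : ℤ_[ℓ]) ^ c • w := by
    ext i; simp [hw i]
  rw [this]; exact hc w

theorem exists_reps {α β : Type*} [Finite β] (p : α → Prop) (f : α → β) :
    ∃ T : Finset α, (∀ t ∈ T, p t) ∧ ∀ a, p a → ∃ t ∈ T, f t = f a := by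
  classical
  have hfin : (f '' {a | p a}).Finite := Set.toFinite _
  obtain ⟨T, hT, hT', hTe⟩ := hfin.exists_subset_finite_image_eq subset_rfl
  refine ⟨hT'.toFinset, fun t ht => hT (hT'.mem_toFinset.1 ht), fun a ha => ?_⟩
  have : f a ∈ f '' T := by rw [hTe]; exact ⟨a, ha, rfl⟩
  obtain ⟨t, ht, h⟩ := this
  exact ⟨t, hT'.mem_toFinset.2 ht, h⟩

theorem index_le_of_cover {M : Type*} [AddCommGroup M] (H : AddSubgroup M) (T : Finset M)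
    (h : ∀ D, ∃ t ∈ T, D - t ∈ H) : H.index ≤ T.card := by
  have hs : Function.Surjective (fun t : T => (QuotientAddGroup.mk (t : M) : M ⧸ H)) := by
    intro q
    obtain ⟨D, rfl⟩ := QuotientAddGroup.mk_surjective q
    obtain ⟨t, ht, hD⟩ := h D
    refine ⟨⟨t, ht⟩, ?_⟩
    simp only
    rw [QuotientAddGroup.eq]
    rwa [neg_add_eq_sub]
  have := Nat.card_le_card_of_surjective _ hs
  rw [Nat.card_eq_finsetCard] at this
  exact this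

open Classical in
/-- residue class modulo `ℓ ^ n` -/
noncomputable def cls (n : ℕ) (x : ℚ_[ℓ]) : ZMod (ℓ ^ n) :=
  if h : ‖x‖ ≤ 1 then PadicInt.toZModPow n ⟨x, h⟩ else 0

theorem norm_sub_le_of_cls {n : ℕ} {x y : ℚ_[ℓ]} (hx : ‖x‖ ≤ 1) (hy : ‖y‖ ≤ 1)
    (h : cls n x = cls n y) : ‖x - y‖ ≤ (ℓ : ℝ) ^ (-(n : ℤ)) := by
  rw [cls, cls, dif_pos hx, dif_pos hy, ← sub_eq_zero, ← map_sub, ← RingHom.mem_ker,
    PadicInt.ker_toZModPow, ← PadicInt.norm_le_pow_iff_mem_span_pow] at h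
  exact h

theorem norm_mul_sub_one {a b : ℚ_[ℓ]} (ha : ‖a - 1‖ < 1) (hb1 : ‖b‖ = 1) (hb : ‖b - 1‖ < 1) :
    ‖a * b - 1‖ < 1 := by
  have : a * b - 1 = (a - 1) * b + (b - 1) := by ring
  rw [this]
  refine (Padic.nonarchimedean _ _).trans_lt (max_lt ?_ hb)
  rwa [norm_mul, hb1, mul_one]

/-- logarithms of the elements of `P` congruent to `1` -/
def logGrp (h2 : ℓ ≠ 2) {K : Type*} [Field K] (φ : ι → K →+* ℚ_[ℓ]) (P : Subgroup Kˣ)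
    (hP : ∀ u ∈ P, ∀ c, ‖φ c (u : K)‖ = 1) : AddSubgroup (ι → ℤ_[ℓ]) where
  carrier := {s | ∃ u ∈ P, (∀ c, ‖φ c (u : K) - 1‖ < 1) ∧ ∀ c, s c = plog ℓ (φ c (u : K))}
  zero_mem' := ⟨1, P.one_mem, fun c => by simp, fun c => by simp [plog_one ℓ h2]⟩
  add_mem' := by
    rintro s t ⟨u, hu, h1, h3⟩ ⟨v, hv, h4, h5⟩
    refine ⟨u * v, P.mul_mem hu hv, fun c => ?_, fun c => ?_⟩
    · rw [Units.val_mul, map_mul]
      exact norm_mul_sub_one (h1 c) (hP v hv c) (h4 c)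
    · rw [Units.val_mul, map_mul, plog_mul ℓ h2 (hP u hu c) (hP v hv c), Pi.add_apply, h3, h5]
  neg_mem' := by
    rintro s ⟨u, hu, h1, h3⟩
    refine ⟨u⁻¹, P.inv_mem hu, fun c => ?_, fun c => ?_⟩
    · have h0 : φ c (u : K) ≠ 0 := by
        rw [← norm_ne_zero_iff, hP u hu c]; exact one_ne_zero
      rw [Units.val_inv_eq_inv_val, map_inv₀]
      have : (φ c (u : K))⁻¹ - 1 = -((φ c (u : K))⁻¹ * (φ c (u : K) - 1)) := by
        field_simp; ring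
      rw [this, norm_neg, norm_mul, norm_inv, hP u hu c, inv_one, one_mul]
      exact h1 c
    · rw [Units.val_inv_eq_inv_val, map_inv₀, ← zpow_neg_one, plog_zpow ℓ h2 (hP u hu c),
        Pi.neg_apply, h3]
      simp

theorem logGrp_span (h2 : ℓ ≠ 2) {K : Type*} [Field K] (φ : ι → K →+* ℚ_[ℓ]) (P : Subgroup Kˣ)
    (hP : ∀ u ∈ P, ∀ c, ‖φ c (u : K)‖ = 1)
    (hlam : ∀ lam : ι → ℤ_[ℓ], (∀ u ∈ P, ∑ c, lam c * plog ℓ (φ c (u : K)) = 0) → lam = 0)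
    (lam : ι → ℤ_[ℓ]) (h : ∀ s ∈ logGrp h2 φ P hP, ∑ c, lam c * s c = 0) : lam = 0 := by
  have hp : ℓ.Prime := Fact.out
  refine hlam lam fun u hu => ?_
  have hmem : (fun c => plog ℓ (φ c ((u ^ (ℓ - 1) : Kˣ) : K))) ∈ logGrp h2 φ P hP := by
    refine ⟨u ^ (ℓ - 1), P.pow_mem hu _, fun c => ?_, fun c => rfl⟩
    have := norm_plog_sub ℓ h2 (hP u hu c) (norm_one (α := ℚ_[ℓ]))
    rw [one_pow] at this
    rw [Units.val_pow_eq_pow_val, map_pow, this]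
    have h1 : (ℓ : ℝ)⁻¹ < 1 := inv_lt_one_of_one_lt₀ (by exact_mod_cast hp.one_lt)
    exact (mul_le_of_le_one_right (by positivity) (PadicInt.norm_le_one _)).trans_lt h1
  have h3 := h _ hmem
  have h4 : ∀ c, lam c * plog ℓ (φ c ((u ^ (ℓ - 1) : Kˣ) : K)) =
      ((ℓ - 1 : ℕ) : ℤ_[ℓ]) * (lam c * plog ℓ (φ c (u : K))) := by
    intro c
    rw [Units.val_pow_eq_pow_val, map_pow, ← zpow_natCast, plog_zpow ℓ h2 (hP u hu c)]
    push_cast; ring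
  simp only [h4, ← Finset.mul_sum] at h3
  refine (mul_eq_zero.1 h3).resolve_left ?_
  have : ℓ - 1 ≠ 0 := by have := hp.two_le; omega
  exact_mod_cast this

theorem index_bound (h2 : ℓ ≠ 2) {K : Type*} [Field K] [NumberField K] (φ : ι → K →+* ℚ_[ℓ])
    (hφ1 : ∀ 𝔩 : HeightOneSpectrum (𝓞 K), (ℓ : 𝓞 K) ∈ 𝔩.asIdeal → ∃ c, ∀ x y : K,
      ‖φ c x‖ ≤ ‖φ c y‖ → 𝔩.valuation K x ≤ 𝔩.valuation K y)
    (hφ2 : ∀ c, ∃ 𝔩 : HeightOneSpectrum (𝓞 K), (ℓ : 𝓞 K) ∈ 𝔩.asIdeal ∧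
      ∀ x : K, 𝔩.valuation K x = 1 → ‖φ c x‖ = 1)
    (P : Subgroup Kˣ) (hP : ∀ u ∈ P, ∀ c, ‖φ c (u : K)‖ = 1)
    (hlam : ∀ lam : ι → ℤ_[ℓ], (∀ u ∈ P, ∑ c, lam c * plog ℓ (φ c (u : K)) = 0) → lam = 0) :
    ∃ C : ℕ, ∀ (N : ℕ) (H : AddSubgroup (HeightOneSpectrum (𝓞 K) →₀ ℤ)),
      (∀ x : K, x ≠ 0 → (∀ 𝔩 : HeightOneSpectrum (𝓞 K), (ℓ : 𝓞 K) ∈ 𝔩.asIdeal →
        𝔩.valuation K (x - 1) ≤ 𝔩.valuation K ((ℓ : K) ^ N)) → dv x ∈ H) →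
      (∀ u ∈ P, dv (u : K) ∈ H) →
      (∀ 𝔩 : HeightOneSpectrum (𝓞 K), (ℓ : 𝓞 K) ∈ 𝔩.asIdeal → Finsupp.single 𝔩 1 ∈ H) →
      H.index ≤ C := by
  classical
  have hp : ℓ.Prime := Fact.out
  have hl1 : (1 : ℝ) < ℓ := by exact_mod_cast hp.one_lt
  have hl0 : (0 : ℝ) < ℓ := by linarith
  obtain ⟨c, hc⟩ := dense_ball _ (logGrp_span h2 φ P hP hlam)
  obtain ⟨T0, hT0⟩ := exists_class_reps K
  have hfin := finite_primes_over (K := K) hp.ne_zero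
  choose y hy0 hy using fun D₀ : HeightOneSpectrum (𝓞 K) →₀ ℤ =>
    exists_ord_on hfin.toFinset (fun 𝔭 => - D₀ 𝔭)
  have : NeZero (ℓ ^ (c + 1)) := ⟨pow_ne_zero _ hp.ne_zero⟩
  obtain ⟨T1, hT1, hT1'⟩ := exists_reps (fun x : K => x ≠ 0 ∧ ∀ i, ‖φ i x‖ = 1)
    (fun x i => cls (c + 1) (φ i x))
  refine ⟨((T0 ×ˢ T1).image fun q => q.1 + dv (y q.1) + dv q.2).card, fun N H h1 h3 h4 =>
    index_le_of_cover H _ fun D => ?_⟩
  set D₁ : HeightOneSpectrum (𝓞 K) →₀ ℤ :=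
    ∑ 𝔩 ∈ hfin.toFinset, Finsupp.single 𝔩 (D 𝔩) with hD₁
  have hD₁H : D₁ ∈ H := by
    refine H.sum_mem fun 𝔩 h𝔩 => ?_
    have := H.zsmul_mem (h4 𝔩 (hfin.mem_toFinset.1 h𝔩)) (D 𝔩)
    rwa [Finsupp.smul_single, smul_eq_mul, mul_one] at this
  have hD₁v : ∀ 𝔩 ∈ hfin.toFinset, D₁ 𝔩 = D 𝔩 := by
    intro 𝔩 h𝔩
    rw [hD₁, Finsupp.finsetSum_apply, Finset.sum_eq_single 𝔩]
    · simp
    · intro b _ hb; simp [hb]
    · intro h; exact absurd h𝔩 h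
  obtain ⟨D₀, hD₀, x, hx0, hx⟩ := hT0 (D - D₁)
  have hx'0 : x * (y D₀)⁻¹ ≠ 0 := mul_ne_zero hx0 (inv_ne_zero (hy0 D₀))
  have hx'1 : ∀ i, ‖φ i (x * (y D₀)⁻¹)‖ = 1 := by
    intro i
    obtain ⟨𝔩, h𝔩, hh⟩ := hφ2 i
    have h𝔩' : 𝔩 ∈ hfin.toFinset := hfin.mem_toFinset.2 h𝔩
    refine hh _ ((ord_eq_zero_iff 𝔩 hx'0).1 ?_)
    rw [ord_mul 𝔩 hx0 (inv_ne_zero (hy0 D₀)), ← zpow_neg_one, ord_zpow, hy D₀ 𝔩 h𝔩']
    have := congrArg (fun D => D 𝔩) hx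
    simp only [Finsupp.sub_apply, Finsupp.add_apply, dv_apply, hD₁v 𝔩 h𝔩'] at this
    linarith
  obtain ⟨t, ht, hcls⟩ := hT1' _ ⟨hx'0, hx'1⟩
  obtain ⟨ht0, ht1⟩ := hT1 t ht
  set z := x * (y D₀)⁻¹ * t⁻¹ with hz
  have hz0 : z ≠ 0 := mul_ne_zero hx'0 (inv_ne_zero ht0)
  have hz1 : ∀ i, ‖φ i z‖ = 1 := by
    intro i
    rw [hz, map_mul, map_inv₀, norm_mul, norm_inv, hx'1, ht1]; simp
  have hz2 : ∀ i, ‖φ i z - 1‖ ≤ (ℓ : ℝ) ^ (-((c + 1 : ℕ) : ℤ)) := by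
    intro i
    have h5 := norm_sub_le_of_cls (hx'1 i).le (ht1 i).le (congrFun hcls i).symm
    have h0 : φ i t ≠ 0 := by rw [← norm_ne_zero_iff, ht1]; exact one_ne_zero
    have : φ i z - 1 = (φ i (x * (y D₀)⁻¹) - φ i t) * (φ i t)⁻¹ := by
      rw [hz, map_mul (φ i) _ t⁻¹, map_inv₀]; field_simp
    rw [this, norm_mul, norm_inv, ht1, inv_one, mul_one]
    exact h5
  have hz3 : ∀ i, ‖φ i z - 1‖ < 1 := fun i =>
    (hz2 i).trans_lt (zpow_lt_one_of_neg₀ hl1 (by omega))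
  have hz4 : ∀ i, ‖plog ℓ (φ i z)‖ ≤ (ℓ : ℝ) ^ (-(c : ℤ)) := by
    intro i
    have h5 := norm_plog_sub' ℓ h2 (hz1 i) (norm_one (α := ℚ_[ℓ])) (hz3 i)
    have h6 := hz2 i
    rw [h5, plog_one ℓ h2, sub_zero, inv_mul_le_iff₀ hl0] at h6
    refine h6.trans (le_of_eq ?_)
    rw [← zpow_one_add₀ hl0.ne']
    congr 1; push_cast; ring
  obtain ⟨s, ⟨u, hu, hu1, hu2⟩, hs⟩ := hc _ hz4 ((ℓ : ℝ) ^ (-(N : ℤ))) (by positivity)
  have hw : dv (z * (u : K)⁻¹) ∈ H := by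
    refine h1 _ (mul_ne_zero hz0 (inv_ne_zero u.ne_zero)) fun 𝔩 h𝔩 => ?_
    obtain ⟨i, hi⟩ := hφ1 𝔩 h𝔩
    refine hi _ _ ?_
    have h0 : φ i (u : K) ≠ 0 := by rw [← norm_ne_zero_iff, hP u hu]; exact one_ne_zero
    have e1 : φ i (z * (u : K)⁻¹ - 1) = -((φ i (u : K) - φ i z) * (φ i (u : K))⁻¹) := by
      rw [map_sub, map_mul, map_inv₀, map_one]; field_simp; ring
    have e2 : ‖φ i (u : K) - φ i z‖ < 1 := by
      have : φ i (u : K) - φ i z = (φ i (u : K) - 1) + -(φ i z - 1) := by ring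
      rw [this]
      refine (Padic.nonarchimedean _ _).trans_lt (max_lt (hu1 i) ?_)
      rw [norm_neg]; exact hz3 i
    rw [e1, norm_neg, norm_mul, norm_inv, hP u hu, inv_one, mul_one,
      norm_plog_sub' ℓ h2 (hP u hu i) (hz1 i) e2, ← hu2 i, map_pow, map_natCast,
      Padic.norm_p_pow]
    refine (mul_le_of_le_one_left (norm_nonneg _) (inv_le_one_of_one_le₀ hl1.le)).trans (hs i)
  refine ⟨D₀ + dv (y D₀) + dv t, Finset.mem_image.2 ⟨(D₀, t), Finset.mem_product.2 ⟨hD₀, ht⟩, rfl⟩,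
    ?_⟩
  have e : x = y D₀ * t * (u : K) * (z * (u : K)⁻¹) := by
    have := hy0 D₀
    have := u.ne_zero
    rw [hz]; field_simp
  have e' : dv x = dv (y D₀) + dv t + dv (u : K) + dv (z * (u : K)⁻¹) := by
    conv_lhs => rw [e]
    rw [dv_mul (mul_ne_zero (mul_ne_zero (hy0 D₀) ht0) u.ne_zero)
      (mul_ne_zero hz0 (inv_ne_zero u.ne_zero)), dv_mul (mul_ne_zero (hy0 D₀) ht0) u.ne_zero,
      dv_mul (hy0 D₀) ht0]
  have e'' : D - (D₀ + dv (y D₀) + dv t) = D₁ + dv (u : K) + dv (z * (u : K)⁻¹) := by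
    rw [sub_eq_iff_eq_add] at hx
    rw [hx, e']; abel
  rw [e'']
  exact H.add_mem (H.add_mem hD₁H (h3 u hu)) hw

end Crest.Agent.R18.H
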