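import Crest.Agent.R18.H.B
import Crest.Agent.R18.Loc

/-! Row 18 block H: the layers of the `ℤ_[ℓ]`-extension. -/

set_option autoImplicit false
set_option linter.unusedSectionVars false
open scoped Pointwise NumberField
open IsDedekindDomain

namespace Crest.Agent.R18.H

theorem exists_layer {G : Type*} [Group G] [TopologicalSpace G] [IsTopologicalGroup G] {ℓ : ℕ}
    [Fact ℓ.Prime] {U : Subgroup G} (hU : IsOpen (U : Set G)) {η : G → ℤ_[ℓ]} (hη : IsChar U η)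
    (m : ℕ) :
    ∃ U' : Subgroup G, IsOpen (U' : Set G) ∧
      (∀ g, g ∈ U' ↔ g ∈ U ∧ PadicInt.toZModPow m (η g) = 0) ∧
      ∃ ψ : U →* Multiplicative (ZMod (ℓ ^ m)), ∀ g : U, ψ g = 1 ↔ (g : G) ∈ U' := by
  let ψ : U →* Multiplicative (ZMod (ℓ ^ m)) := MonoidHom.mk'
    (fun g => Multiplicative.ofAdd (PadicInt.toZModPow m (η g))) (fun a b => by
      rw [Subgroup.coe_mul, hη.1 _ a.2 _ b.2, map_add, ofAdd_add])
  have hψ : ∀ g : U, ψ g = 1 ↔ PadicInt.toZModPow m (η g) = 0 := fun g => ofAdd_eq_one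
  have hmem : ∀ g, g ∈ ψ.ker.map U.subtype ↔ g ∈ U ∧ PadicInt.toZModPow m (η g) = 0 := by
    intro g
    constructor
    · rintro ⟨a, ha, rfl⟩
      exact ⟨a.2, (hψ a).1 ha⟩
    · rintro ⟨hg, h⟩
      exact ⟨⟨g, hg⟩, (hψ ⟨g, hg⟩).2 h, rfl⟩
  refine ⟨ψ.ker.map U.subtype, ?_, hmem, ψ, fun g => ?_⟩
  · have hl0 : (0 : ℝ) < ℓ := by exact_mod_cast (Fact.out : ℓ.Prime).pos
    have : (ψ.ker.map U.subtype : Set G) =
        (U : Set G) ∩ η ⁻¹' Metric.closedBall 0 ((ℓ : ℝ) ^ (-(m : ℤ))) := by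
      ext g
      rw [SetLike.mem_coe, hmem, ← RingHom.mem_ker, PadicInt.ker_toZModPow,
        ← PadicInt.norm_le_pow_iff_mem_span_pow]
      simp
    rw [this]
    exact hη.2.isOpen_inter_preimage hU
      (IsUltrametricDist.isOpen_closedBall _ (zpow_pos hl0 _).ne')
  · rw [hmem, hψ]
    exact ⟨fun h => ⟨g.2, h⟩, fun h => h.2⟩

theorem cyc_of {G H : Type*} [Group G] [Group H] {n : ℕ} [NeZero n] (res : G →* H)
    (hs : Function.Surjective res) (ψ : G →* Multiplicative (ZMod n))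
    (h : ∀ g, res g = 1 ↔ ψ g = 1) : IsCyclic H ∧ Nat.card H ∣ n := by
  have hk : res.ker = ψ.ker := by ext g; exact h g
  let e : ψ.range ≃* H := (QuotientGroup.quotientKerEquivRange ψ).symm.trans
    ((QuotientGroup.quotientMulEquivOfEq hk.symm).trans
      (QuotientGroup.quotientKerEquivOfSurjective res hs))
  refine ⟨isCyclic_of_surjective e e.surjective, ?_⟩
  rw [← Nat.card_congr e.toEquiv]
  have := Subgroup.card_subgroup_dvd_card ψ.range
  rwa [Nat.card_congr Multiplicative.toAdd, Nat.card_zmod] at this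

variable {F E : Type*} [Field F] [NumberField F] [Field E] [Algebra F E] [IsGalois F E]
variable {K L : Type*} [Field K] [NumberField K] [Field L] [NumberField L] [Algebra K L]

theorem layer_unr {ℓ : ℕ} [Fact ℓ.Prime] {U U' : Subgroup (E ≃ₐ[F] E)}
    (hU : IsOpen (U : Set (E ≃ₐ[F] E))) (hU' : IsOpen (U' : Set (E ≃ₐ[F] E))) (hle : U' ≤ U)
    (j : L →+* E) (hj : ∀ x, Fix U' x ↔ ∃ y, j y = x) (res : U →* (L ≃ₐ[K] L))
    (hs : Function.Surjective res) (hres : ∀ (g : U) x, j (res g x) = (g : E ≃ₐ[F] E) (j x))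
    {η : (E ≃ₐ[F] E) → ℤ_[ℓ]} (hη : IsChar U η)
    (hker : ∀ g : U, ∀ w ∈ U', η (w⁻¹ * g) = 0 → res g = 1)
    (𝔓 : HeightOneSpectrum (𝓞 L)) (h𝔓 : (ℓ : 𝓞 L) ∉ 𝔓.asIdeal) :
    𝔓.asIdeal.inertia (L ≃ₐ[K] L) = ⊥ := by
  rw [eq_bot_iff]
  intro σ hσ
  obtain ⟨g, rfl⟩ := hs σ
  obtain ⟨A, p, hA, hp, hv⟩ := exists_val_above j 𝔓
  have hpl : p ≠ ℓ := by rintro rfl; exact h𝔓 hp
  obtain ⟨w, hw, hi⟩ := exists_inert U' hU' j hj hA 𝔓 hv (hres g) hσ
  exact hker g w hw (unr U hU hη hA hpl (U.mul_mem (U.inv_mem (hle hw)) g.2) hi)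

theorem layer_punit {ℓ : ℕ} [Fact ℓ.Prime] {U U' : Subgroup (E ≃ₐ[F] E)}
    (hU' : IsOpen (U' : Set (E ≃ₐ[F] E))) (hle : U' ≤ U)
    (j : L →+* E) (hj : ∀ x, Fix U' x ↔ ∃ y, j y = x) (res : U →* (L ≃ₐ[K] L))
    (hs : Function.Surjective res) (hres : ∀ (g : U) x, j (res g x) = (g : E ≃ₐ[F] E) (j x))
    {η : (E ≃ₐ[F] E) → ℤ_[ℓ]}
    (hker : ∀ g : U, ∀ w ∈ U', η (w⁻¹ * g) = 0 → res g = 1)
    {x : K} (hx : PUnit ℓ U η (j (algebraMap K L x))) (N : ℕ) : dv x ∈ fiSub K L ℓ N := by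
  classical
  have hx0 : x ≠ 0 := by
    rintro rfl
    exact hx.1 (by simp)
  have : CharZero E := charZero_of_injective_algebraMap (algebraMap F E).injective
  rw [← Finsupp.sum_single (dv x), Finsupp.sum]
  refine AddSubgroup.sum_mem _ fun 𝔭 h𝔭 => ?_
  have h1 : Finsupp.single 𝔭 (1 : ℤ) ∈ fiSub K L ℓ N := by
    rw [Finsupp.mem_support_iff, dv_apply, Ne, ord_eq_zero_iff 𝔭 hx0] at h𝔭
    obtain ⟨A, p, hA, -, hv⟩ := exists_val_above (j.comp (algebraMap K L)) 𝔭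
    obtain ⟨𝔓, -, hw⟩ := exists_prime_below j A hA
    have hAx : A.valuation (j (algebraMap K L x)) ≠ 1 := by
      intro h
      apply h𝔭
      have h2 := (hv x 1).1 (by simp [h])
      have h3 := (hv 1 x).1 (by simp [h])
      rw [map_one] at h2 h3
      exact le_antisymm h2 h3
    obtain ⟨-, hd⟩ := hx.2.2 A hA.ne_top hAx
    have hst : MulAction.stabilizer (L ≃ₐ[K] L) 𝔓.asIdeal = ⊥ := by
      rw [eq_bot_iff]
      intro σ hσ
      obtain ⟨g, rfl⟩ := hs σ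
      obtain ⟨w, hw', hi⟩ := exists_stab U' hU' j (fun x => (hj x).1) hA 𝔓 hw (hres g) hσ
      exact hker g w hw' (hd _ (U.mul_mem (U.inv_mem (hle hw')) g.2) hi)
    refine AddSubgroup.subset_closure (Or.inl (Or.inr ⟨𝔭, 𝔓, ?_, ?_⟩))
    · ext a
      rw [Ideal.mem_under, ← 𝔓.valuation_lt_one_iff_mem (K := L),
        ← 𝔭.valuation_lt_one_iff_mem (K := K), ← not_le, ← not_le]
      have e1 := hw 1 (algebraMap (𝓞 L) L (algebraMap (𝓞 K) (𝓞 L) a))
      have e2 := hv 1 (algebraMap (𝓞 K) K a)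
      have e3 : algebraMap (𝓞 L) L (algebraMap (𝓞 K) (𝓞 L) a) =
          algebraMap K L (algebraMap (𝓞 K) K a) := rfl
      simp only [map_one, RingHom.comp_apply] at e1 e2
      rw [← e3] at e2
      exact not_congr (e1.symm.trans e2)
    · rw [hst]; simp
  have := (fiSub K L ℓ N).zsmul_mem h1 (dv x 𝔭)
  rwa [Finsupp.smul_single, smul_eq_mul, mul_one] at this

end Crest.Agent.R18.H
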