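import Crest.Agent.R18.Dict
import Crest.Agent.R18.Dec
import Crest.Agent.R18.Val
import Crest.Agent.R18.Grp

/-! Row 18 block H: lifting decomposition and inertia groups to the infinite level. -/

set_option autoImplicit false
set_option linter.unusedSectionVars false
open scoped Pointwise NumberField
open IsDedekindDomain

namespace Crest.Agent.R18.H

section
variable {K L : Type*} [Field K] [Field L] [NumberField L] [Algebra K L]

theorem coe_smul_int (σ : L ≃ₐ[K] L) (a : 𝓞 L) :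
    algebraMap (𝓞 L) L (σ • a) = σ (algebraMap (𝓞 L) L a) := rfl

theorem val_le_one_of_stab (𝔓 : HeightOneSpectrum (𝓞 L)) {σ : L ≃ₐ[K] L}
    (hσ : σ ∈ MulAction.stabilizer (L ≃ₐ[K] L) 𝔓.asIdeal) {x : L}
    (hx : 𝔓.valuation L x ≤ 1) : 𝔓.valuation L (σ x) ≤ 1 := by
  obtain ⟨n, ⟨d, hd⟩, hnd⟩ := 𝔓.exists_primeCompl_mul_eq_of_integer x hx
  have hd' : σ • d ∉ 𝔓.asIdeal := by
    intro h
    apply hd
    rw [← MulAction.mem_stabilizer_iff.1 hσ] at h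
    exact (Ideal.smul_mem_pointwise_smul_iff).1 h
  have h1 : 𝔓.valuation L (algebraMap (𝓞 L) L (σ • d)) = 1 :=
    (𝔓.valuation_eq_one_iff_notMem).2 hd'
  have h2 : σ x * algebraMap (𝓞 L) L (σ • d) = algebraMap (𝓞 L) L (σ • n) := by
    rw [coe_smul_int, coe_smul_int, ← map_mul]
    exact congrArg σ hnd
  have h3 := congrArg (𝔓.valuation L) h2
  rw [map_mul, h1, mul_one] at h3
  rw [h3]
  exact 𝔓.valuation_le_one _

theorem val_sub_lt_one_of_inertia (𝔓 : HeightOneSpectrum (𝓞 L)) {σ : L ≃ₐ[K] L}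
    (hσ : σ ∈ 𝔓.asIdeal.inertia (L ≃ₐ[K] L)) {x : L}
    (hx : 𝔓.valuation L x ≤ 1) : 𝔓.valuation L (σ x - x) < 1 := by
  obtain ⟨a, ha⟩ := 𝔓.exists_valuation_sub_lt_of_integer hx 1
  rw [Units.val_one] at ha
  have hs := Ideal.inertia_le_stabilizer 𝔓.asIdeal hσ
  have h1 : 𝔓.valuation L (algebraMap (𝓞 L) L (σ • a - a)) < 1 :=
    (𝔓.valuation_lt_one_iff_mem _).2 (AddSubgroup.mem_inertia.1 hσ a)
  have h2 : 𝔓.valuation L (σ (algebraMap (𝓞 L) L a - x)) < 1 := by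
    by_contra h
    rw [not_lt] at h
    have h0 : algebraMap (𝓞 L) L a - x ≠ 0 := by
      intro h0
      rw [h0, map_zero, map_zero] at h
      exact absurd h (by simp)
    have h3 : 𝔓.valuation L (σ (algebraMap (𝓞 L) L a - x))⁻¹ ≤ 1 := by
      rw [map_inv₀]; exact inv_le_one_of_one_le₀ h
    have h4 := val_le_one_of_stab 𝔓 (Subgroup.inv_mem _ hs) h3
    rw [← map_inv₀, ← AlgEquiv.mul_apply, inv_mul_cancel, AlgEquiv.one_apply, map_inv₀] at h4
    have h5 : 𝔓.valuation L (algebraMap (𝓞 L) L a - x) ≠ 0 := (Valuation.ne_zero_iff _).2 h0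
    exact absurd ha (not_lt.2 ((inv_le_one₀ (zero_lt_iff.2 h5)).1 h4))
  have e : σ x - x = algebraMap (𝓞 L) L (σ • a - a) + (algebraMap (𝓞 L) L a - x) -
      σ (algebraMap (𝓞 L) L a - x) := by
    rw [map_sub, map_sub, coe_smul_int]; ring
  rw [e]
  exact Valuation.map_sub_lt _ (Valuation.map_add_lt _ h1 ha) h2

end

variable {F E : Type*} [Field F] [NumberField F] [Field E] [Algebra F E] [IsGalois F E]
variable {K L : Type*} [Field K] [Field L] [NumberField L] [Algebra K L]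

theorem exists_stab (U' : Subgroup (E ≃ₐ[F] E)) (hU' : IsOpen (U' : Set (E ≃ₐ[F] E)))
    (j : L →+* E) (hj : ∀ x, Fix U' x → ∃ y, j y = x) {A : ValuationSubring E} {p : ℕ}
    (hA : Over A p) (𝔓 : HeightOneSpectrum (𝓞 L))
    (h𝔓 : ∀ x y : L, A.valuation (j x) ≤ A.valuation (j y) ↔
      𝔓.valuation L x ≤ 𝔓.valuation L y)
    {g : E ≃ₐ[F] E} {σ : L ≃ₐ[K] L} (hg : ∀ x, j (σ x) = g (j x))
    (hσ : σ ∈ MulAction.stabilizer (L ≃ₐ[K] L) 𝔓.asIdeal) :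
    ∃ w ∈ U', Stab A (w⁻¹ * g) := by
  have hmem : ∀ y : L, j y ∈ A ↔ 𝔓.valuation L y ≤ 1 := by
    intro y
    rw [← A.valuation_le_one_iff]
    have := h𝔓 y 1
    rwa [map_one, map_one, map_one] at this
  have hag : Agree U' A (g • A) := by
    intro x hx
    obtain ⟨y, rfl⟩ := hj x hx
    have e : j y = g (j (σ⁻¹ y)) := by
      rw [← hg, ← AlgEquiv.mul_apply, mul_inv_cancel, AlgEquiv.one_apply]
    conv_rhs => rw [e]
    rw [mem_smul_val, hmem, hmem]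
    refine ⟨val_le_one_of_stab 𝔓 (Subgroup.inv_mem _ hσ), fun h => ?_⟩
    have := val_le_one_of_stab 𝔓 hσ h
    rwa [← AlgEquiv.mul_apply, mul_inv_cancel, AlgEquiv.one_apply] at this
  obtain ⟨w, hw, hwA⟩ := conj_of_agree U' hU' hA hag
  refine ⟨w, hw, stab_iff.2 ?_⟩
  rw [mul_smul, ← hwA, inv_smul_smul]

theorem exists_inert (U' : Subgroup (E ≃ₐ[F] E)) (hU' : IsOpen (U' : Set (E ≃ₐ[F] E)))
    (j : L →+* E) (hj : ∀ x, Fix U' x ↔ ∃ y, j y = x) {A : ValuationSubring E} {p : ℕ}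
    (hA : Over A p) (𝔓 : HeightOneSpectrum (𝓞 L))
    (h𝔓 : ∀ x y : L, A.valuation (j x) ≤ A.valuation (j y) ↔
      𝔓.valuation L x ≤ 𝔓.valuation L y)
    {g : E ≃ₐ[F] E} {σ : L ≃ₐ[K] L} (hg : ∀ x, j (σ x) = g (j x))
    (hσ : σ ∈ 𝔓.asIdeal.inertia (L ≃ₐ[K] L)) :
    ∃ w ∈ U', Inert A (w⁻¹ * g) := by
  obtain ⟨w, hw, hs⟩ := exists_stab U' hU' j (fun x => (hj x).1) hA 𝔓 h𝔓 hg
    (Ideal.inertia_le_stabilizer 𝔓.asIdeal hσ)
  obtain ⟨w', hw', hi⟩ := lift_inert hU' hA hs (by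
    intro x hxA hx
    obtain ⟨y, rfl⟩ := (hj x).1 hx
    have e : (w⁻¹ * g) (j y) = j (σ y) := by
      rw [AlgEquiv.mul_apply, ← hg]
      exact (hj _).2 ⟨_, rfl⟩ _ (U'.inv_mem hw)
    have h1 : 𝔓.valuation L y ≤ 1 := by
      have := (h𝔓 y 1).1 (by rw [map_one, map_one]; exact (A.valuation_le_one_iff _).2 hxA)
      rwa [map_one] at this
    have h2 := val_sub_lt_one_of_inertia 𝔓 hσ h1
    rw [e, ← map_sub, ← not_le]
    intro h3
    have := (h𝔓 1 (σ y - y)).1 (by rwa [map_one, map_one])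
    rw [map_one] at this
    exact absurd h2 (not_lt.2 this))
  refine ⟨w * w', U'.mul_mem hw hw', ?_⟩
  rwa [mul_inv_rev, mul_assoc]

end Crest.Agent.R18.H
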